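import Vale.Agent.P240.R2.H923.TRStmts

/-!
P240 (helper252): row P0 of the even case of TR: a prime `p ≥ 5` divides `q + 1`.
-/

set_option autoImplicit false

namespace Vale.Agent.P240.R2.H252

open Vale.Agent.P240.R2.H923.TR

universe u

/-- `3 ^ k = 2 ^ f + 1`, `f ≥ 2` forces `f = 3` -/
theorem pow3 (k f : ℕ) (hf : 2 ≤ f) (h : 3 ^ k = 2 ^ f + 1) : f = 3 := by
  -- k even since mod 4
  have h4 : (4 : ℕ) ∣ 2 ^ f := by
    obtain ⟨g, rfl⟩ := Nat.exists_eq_add_of_le hf
    rw [pow_add]; exact Dvd.intro _ rfl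
  have hk : Even k := by
    by_contra hk
    rw [Nat.not_even_iff_odd] at hk
    obtain ⟨j, rfl⟩ := hk
    have h9 : 3 ^ (2 * j + 1) % 4 = 3 := by
      rw [pow_succ, pow_mul, Nat.mul_mod, Nat.pow_mod]; norm_num
    rw [h] at h9
    omega
  obtain ⟨j, rfl⟩ := hk
  have hj : 1 ≤ j := by
    by_contra hj
    have : j = 0 := by omega
    subst this
    have : 2 ^ f = 0 := by simpa using h.symm
    exact absurd this (by positivity)
  have h3 : 1 ≤ 3 ^ j := Nat.one_le_pow _ _ (by norm_num)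
  have hfac : (3 ^ j - 1) * (3 ^ j + 1) = 2 ^ f := by
    have h1 : 3 ^ (j + j) = 3 ^ j * 3 ^ j := pow_add _ _ _
    rw [h1] at h
    obtain ⟨y, hy⟩ := Nat.exists_eq_add_of_le h3
    rw [hy] at h ⊢
    have : 1 + y - 1 = y := by omega
    rw [this]
    nlinarith
  have d1 : (3 ^ j - 1) ∣ 2 ^ f := Dvd.intro _ hfac
  have d2 : (3 ^ j + 1) ∣ 2 ^ f := Dvd.intro_left _ hfac
  obtain ⟨u, -, hu⟩ := (Nat.dvd_prime_pow Nat.prime_two).1 d1
  obtain ⟨v, -, hv⟩ := (Nat.dvd_prime_pow Nat.prime_two).1 d2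
  -- 2 ^ v = 2 ^ u + 2
  have huv : 2 ^ v = 2 ^ u + 2 := by omega
  have hu1 : u = 1 := by
    rcases Nat.lt_or_ge u 2 with h0 | h0
    · interval_cases u
      · exfalso
        have : v = 1 ∨ 2 ≤ v ∨ v = 0 := by omega
        rcases this with rfl | h2 | rfl
        · omega
        · obtain ⟨g, rfl⟩ := Nat.exists_eq_add_of_le h2
          rw [pow_add] at huv; omega
        · omega
      · rfl
    · exfalso
      obtain ⟨g, rfl⟩ := Nat.exists_eq_add_of_le h0
      have : 2 ≤ v := by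
        by_contra hh
        have : v = 0 ∨ v = 1 := by omega
        rcases this with rfl | rfl
        · simp at huv
        · have : 0 < 2 ^ (2 + g) := by positivity
          omega
      obtain ⟨g', rfl⟩ := Nat.exists_eq_add_of_le this
      rw [pow_add, pow_add] at huv
      omega
  subst hu1
  have : 3 ^ j = 3 := by omega
  have h8 : 2 ^ f = 2 ^ 3 := by rw [← hfac, this]; norm_num
  exact Nat.pow_right_injective (le_refl 2) h8

theorem p0 (K : Type u) [Field K] [Fintype K] (q : ℕ) (hq : Nat.card K = q ^ 2) (he : Even q)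
    (h4 : 4 ≤ q) (h8 : q ≠ 8) : ∃ p : ℕ, p.Prime ∧ 5 ≤ p ∧ p ∣ q + 1 := by
  -- q is a power of two
  obtain ⟨p, hp⟩ := CharP.exists K
  obtain ⟨n, hpp, hn⟩ := FiniteField.card K p
  have hcard : q ^ 2 = p ^ (n : ℕ) := by rw [← hq, Nat.card_eq_fintype_card, hn]
  have hp2 : p = 2 := by
    have h2 : 2 ∣ p ^ (n : ℕ) := by
      rw [← hcard]; exact Dvd.dvd.pow (even_iff_two_dvd.1 he) (by norm_num)
    have := Nat.prime_two.dvd_of_dvd_pow h2
    exact ((Nat.prime_dvd_prime_iff_eq Nat.prime_two hpp).1 this).symm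
  subst hp2
  obtain ⟨f, -, hf⟩ := (Nat.dvd_prime_pow Nat.prime_two).1
    (show q ∣ 2 ^ (n : ℕ) by rw [← hcard]; exact dvd_pow_self q (by norm_num))
  subst hf
  have hf2 : 2 ≤ f := by
    by_contra hh
    have : f = 0 ∨ f = 1 := by omega
    rcases this with rfl | rfl <;> norm_num at h4
  by_contra hcon
  push Not at hcon
  -- all primes factors are 3
  have hall : ∀ r, r.Prime → r ∣ 2 ^ f + 1 → r = 3 := by
    intro r hr hd
    have h5 : ¬ 5 ≤ r := fun h => hcon r hr h hd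
    have h2 : r ≠ 2 := by
      rintro rfl
      have : 2 ∣ 2 ^ f := dvd_pow_self 2 (by omega)
      omega
    have := hr.two_le
    have : r = 3 ∨ r = 4 := by omega
    rcases this with rfl | rfl
    · rfl
    · norm_num at hr
  have hpow : 2 ^ f + 1 = 3 ^ (2 ^ f + 1).primeFactorsList.length :=
    Nat.eq_prime_pow_of_unique_prime_dvd (by positivity) (fun {r} hr hd => hall r hr hd)
  exact h8 (by rw [pow3 _ f hf2 hpow.symm]; norm_num)

theorem stmtP0 : StmtP0.{u} := fun K _ _ q hq he h4 h8 => p0 K q hq he h4 h8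

end Vale.Agent.P240.R2.H252
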