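import Vale.Agent.P240.R2.H923.TRStmts

/-!
P240 (helper252): row V of the even case of TR: a map on pairs that preserves triangles comes from
a permutation.
-/

set_option autoImplicit false

namespace Vale.Agent.P240.R2.H252

open Vale.Agent.P240.R2.H923.TR

variable {α : Type*} [DecidableEq α]

lemma two_of_mem {A : Finset α} (hA : A.card = 2) {v : α} (hv : v ∈ A) :
    ∃ x, x ≠ v ∧ A = {v, x} := by
  obtain ⟨x, y, hxy, rfl⟩ := Finset.card_eq_two.1 hA
  simp only [Finset.mem_insert, Finset.mem_singleton] at hv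
  rcases hv with rfl | rfl
  · exact ⟨y, hxy.symm, rfl⟩
  · exact ⟨x, hxy, Finset.pair_comm _ _⟩

lemma common {A B D : Finset α} (hA : A.card = 2) (hB : B.card = 2)
    (hU : (A ∪ B ∪ D).card = 3) : ∃ v, v ∈ A ∧ v ∈ B := by
  by_contra hcon
  push Not at hcon
  have hd : Disjoint A B := Finset.disjoint_left.2 hcon
  have h1 : (A ∪ B).card = 4 := by rw [Finset.card_union_of_disjoint hd, hA, hB]
  have h2 : (A ∪ B).card ≤ (A ∪ B ∪ D).card := Finset.card_le_card Finset.subset_union_left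
  omega

/-- the third edge -/
lemma third {A B D : Finset α} (hD : D.card = 2) (hAD : A ≠ D) (hBD : B ≠ D)
    (hU : (A ∪ B ∪ D).card = 3) {v x z : α} (hA : A = {v, x}) (hB : B = {v, z})
    (hx : x ≠ v) (hz : z ≠ v) (hxz : x ≠ z) : D = {x, z} := by
  have h1 : A ∪ B = {v, x, z} := by
    subst hA hB; ext t; simp only [Finset.mem_union, Finset.mem_insert, Finset.mem_singleton]; tauto
  have h2 : ({v, x, z} : Finset α).card = 3 :=
    Finset.card_eq_three.2 ⟨v, x, z, hx.symm, hz.symm, hxz, rfl⟩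
  have h3 : A ∪ B = A ∪ B ∪ D := by
    refine Finset.eq_of_subset_of_card_le Finset.subset_union_left ?_
    rw [h1, h2, ← h1, hU]
  have h4 : D ⊆ {v, x, z} := by
    rw [← h1, h3]; exact Finset.subset_union_right
  obtain ⟨s, t, hst, rfl⟩ := Finset.card_eq_two.1 hD
  have hs := h4 (Finset.mem_insert_self _ _)
  have ht := h4 (Finset.mem_insert_of_mem (Finset.mem_singleton_self _))
  simp only [Finset.mem_insert, Finset.mem_singleton] at hs ht
  subst hA hB
  rcases hs with rfl | rfl | rfl <;> rcases ht with rfl | rfl | rfl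
  · exact absurd rfl hst
  · exact absurd rfl hAD
  · exact absurd rfl hBD
  · exact absurd (Finset.pair_comm _ _) hAD
  · exact absurd rfl hst
  · rfl
  · exact absurd (Finset.pair_comm _ _) hBD
  · exact Finset.pair_comm _ _
  · exact absurd rfl hst

lemma no_common {A B D : Finset α} (hA : A.card = 2) (hB : B.card = 2) (hD : D.card = 2)
    (hAB : A ≠ B) (hAD : A ≠ D) (hBD : B ≠ D) (hU : (A ∪ B ∪ D).card = 3) {v : α} (h1 : v ∈ A)
    (h2 : v ∈ B) : v ∉ D := by
  obtain ⟨x, hx, hA'⟩ := two_of_mem hA h1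
  obtain ⟨z, hz, hB'⟩ := two_of_mem hB h2
  have hxz : x ≠ z := by rintro rfl; exact hAB (hA'.trans hB'.symm)
  have := third hD hAD hBD hU hA' hB' hx hz hxz
  rw [this]
  simp only [Finset.mem_insert, Finset.mem_singleton, not_or]
  exact ⟨hx.symm, hz.symm⟩

lemma star {A B C D E F : Finset α} (hA : A.card = 2) (hB : B.card = 2) (hC : C.card = 2)
    (hD : D.card = 2) (hAB : A ≠ B) (hAD : A ≠ D) (hBD : B ≠ D) (hCD : C ≠ D)
    (hU : (A ∪ B ∪ D).card = 3) (hU1 : (A ∪ C ∪ E).card = 3) (hU2 : (B ∪ C ∪ F).card = 3)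
    {v : α} (h1 : v ∈ A) (h2 : v ∈ B) : v ∈ C := by
  by_contra h3
  obtain ⟨x, hx, hA'⟩ := two_of_mem hA h1
  obtain ⟨z, hz, hB'⟩ := two_of_mem hB h2
  have hxz : x ≠ z := by rintro rfl; exact hAB (hA'.trans hB'.symm)
  have hD' := third hD hAD hBD hU hA' hB' hx hz hxz
  obtain ⟨s, hs1, hs2⟩ := common hA hC hU1
  obtain ⟨t, ht1, ht2⟩ := common hB hC hU2
  have hsx : s = x := by
    rw [hA'] at hs1
    simp only [Finset.mem_insert, Finset.mem_singleton] at hs1
    rcases hs1 with rfl | rfl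
    · exact absurd hs2 h3
    · rfl
  have htz : t = z := by
    rw [hB'] at ht1
    simp only [Finset.mem_insert, Finset.mem_singleton] at ht1
    rcases ht1 with rfl | rfl
    · exact absurd ht2 h3
    · rfl
  subst hsx htz
  obtain ⟨y, hy, hC'⟩ := two_of_mem hC hs2
  have : y = t := by
    rw [hC'] at ht2
    simp only [Finset.mem_insert, Finset.mem_singleton] at ht2
    rcases ht2 with h | h
    · exact absurd h.symm hxz
    · exact h.symm
  subst this
  exact hCD (hC'.trans hD'.symm)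

theorem stmtV : StmtV := by
  intro n hn φ hc hi ht
  have pair2 : ∀ i j : Fin n, i ≠ j → ({i, j} : Finset (Fin n)).card = 2 := fun i j h =>
    Finset.card_pair h
  have cφ : ∀ i j : Fin n, i ≠ j → (φ {i, j}).card = 2 := fun i j h => hc _ (pair2 i j h)
  have dφ : ∀ i j k l : Fin n, i ≠ j → k ≠ l → ({i, j} : Finset (Fin n)) ≠ {k, l} →
      φ {i, j} ≠ φ {k, l} := fun i j k l h1 h2 h3 h4 => h3 (hi _ _ (pair2 i j h1) (pair2 k l h2) h4)
  have dset : ∀ i j k : Fin n, i ≠ j → i ≠ k → j ≠ k → ({i, j} : Finset (Fin n)) ≠ {i, k} := by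
    intro i j k h1 h2 h3 h
    have : j ∈ ({i, k} : Finset (Fin n)) := h ▸ (by simp)
    simp only [Finset.mem_insert, Finset.mem_singleton] at this
    rcases this with h | h
    · exact h1 h.symm
    · exact h3 h
  -- a third element
  have ex3 : ∀ i j : Fin n, ∃ k, k ≠ i ∧ k ≠ j := by
    intro i j
    by_contra hcon
    push Not at hcon
    have h1 : (Finset.univ : Finset (Fin n)) ⊆ {i, j} := by
      intro k _
      by_cases h : k = i
      · simp [h]
      · simp [hcon k h]
    have h2 := Finset.card_le_card h1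
    have h3 : ({i, j} : Finset (Fin n)).card ≤ 2 := Finset.card_le_two
    simp at h2
    omega
  -- triangles in the form `A ∪ B ∪ D` at the vertex `i`
  have tri : ∀ i j k : Fin n, i ≠ j → i ≠ k → j ≠ k →
      (φ {i, j} ∪ φ {i, k} ∪ φ {j, k}).card = 3 := by
    intro i j k h1 h2 h3
    have := ht i j k h1 h2 h3
    rwa [Finset.union_right_comm] at this
  have hv : ∀ i : Fin n, ∃ v, ∀ j, j ≠ i → v ∈ φ {i, j} := by
    intro i
    obtain ⟨j0, hj0, -⟩ := ex3 i i
    obtain ⟨k0, hk0, hk1⟩ := ex3 i j0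
    obtain ⟨v, hv1, hv2⟩ := common (cφ i j0 hj0.symm) (cφ i k0 hk0.symm)
      (tri i j0 k0 hj0.symm hk0.symm hk1.symm)
    refine ⟨v, fun l hl => ?_⟩
    by_cases h1 : l = j0
    · rw [h1]; exact hv1
    by_cases h2 : l = k0
    · rw [h2]; exact hv2
    have e1 : φ {i, j0} ≠ φ {j0, k0} := by
      rw [Finset.pair_comm i j0]
      exact dφ _ _ _ _ hj0 hk1.symm (dset j0 i k0 hj0 hk1.symm hk0.symm)
    have e2 : φ {i, k0} ≠ φ {j0, k0} := by
      rw [Finset.pair_comm i k0, Finset.pair_comm j0 k0]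
      exact dφ _ _ _ _ hk0 hk1 (dset k0 i j0 hk0 hk1 hj0.symm)
    have e3 : φ {i, l} ≠ φ {j0, k0} := by
      refine dφ _ _ _ _ hl.symm hk1.symm ?_
      intro h
      have : i ∈ ({j0, k0} : Finset (Fin n)) := h ▸ (by simp)
      simp only [Finset.mem_insert, Finset.mem_singleton] at this
      rcases this with h | h
      · exact hj0 h.symm
      · exact hk0 h.symm
    exact star (cφ i j0 hj0.symm) (cφ i k0 hk0.symm) (cφ i l hl.symm) (cφ j0 k0 hk1.symm)
      (dφ _ _ _ _ hj0.symm hk0.symm (dset i j0 k0 hj0.symm hk0.symm hk1.symm)) e1 e2 e3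
      (tri i j0 k0 hj0.symm hk0.symm hk1.symm) (tri i j0 l hj0.symm hl.symm (Ne.symm h1))
      (tri i k0 l hk0.symm hl.symm (Ne.symm h2)) hv1 hv2
  choose π hπ using hv
  have hinj : Function.Injective π := by
    intro i j hij
    by_contra hne
    obtain ⟨k, hk1, hk2⟩ := ex3 i j
    have a1 := hπ i j (Ne.symm hne)
    have a2 := hπ i k hk1
    have a3 := hπ j k hk2
    rw [← hij] at a3
    have hij' : i ≠ j := hne
    refine no_common (cφ i j hij') (cφ i k hk1.symm) (cφ j k hk2.symm)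
      (dφ _ _ _ _ hij' hk1.symm (dset i j k hij' hk1.symm hk2.symm)) ?_ ?_
      (tri i j k hij' hk1.symm hk2.symm) a1 a2 a3
    · rw [Finset.pair_comm i j]
      exact dφ _ _ _ _ hij'.symm hk2.symm (dset j i k hij'.symm hk2.symm hk1.symm)
    · rw [Finset.pair_comm i k, Finset.pair_comm j k]
      exact dφ _ _ _ _ hk1 hk2 (dset k i j hk1 hk2 hij')
  have hbij : Function.Bijective π := Finite.injective_iff_bijective.1 hinj
  refine ⟨Equiv.ofBijective π hbij, fun i j hij => ?_⟩
  change φ {i, j} = {π i, π j}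
  have m1 := hπ i j hij.symm
  have m2 := hπ j i hij
  rw [Finset.pair_comm j i] at m2
  symm
  refine Finset.eq_of_subset_of_card_le ?_ ?_
  · intro t ht'
    simp only [Finset.mem_insert, Finset.mem_singleton] at ht'
    rcases ht' with rfl | rfl
    · exact m1
    · exact m2
  · rw [cφ i j hij, Finset.card_pair (fun h => hij (hinj h))]

end Vale.Agent.P240.R2.H252
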